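import Mathlib
import Vale.Agent.Lib.Kemperman

open Finset
open scoped Pointwise

namespace Vale.Agent.Results.P038.VertexTransitive

/-- First out-neighbourhood of `v` for the arc relation `r` (`r v u` means `v → u`). -/
def outNbr {V : Type*} (r : V → V → Prop) (v : V) : Set V :=
  {u | r v u}

/-- Second out-neighbourhood of `v`: vertices at directed distance exactly two from `v`. -/
def secondOutNbr {V : Type*} (r : V → V → Prop) (v : V) : Set V :=
  {w | w ≠ v ∧ ¬ r v w ∧ ∃ u, r v u ∧ r u w}

/-- Seymour's second neighbourhood conjecture holds for every finite vertex-transitive oriented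
graph, and there every vertex `v` satisfies `|N₁⁺(v)| ≤ |N₂⁺(v)|`. -/
theorem result {V : Type*} [Fintype V] (r : V → V → Prop)
    (hirr : ∀ v, ¬ r v v) (hasym : ∀ u v, r u v → ¬ r v u)
    (htrans : ∀ u v : V, ∃ σ : Equiv.Perm V, (∀ a b, r a b ↔ r (σ a) (σ b)) ∧ σ u = v) :
    ∀ v, (outNbr r v).ncard ≤ (secondOutNbr r v).ncard := by
  classical
  intro v₀
  -- the automorphism group of the digraph
  let H : Subgroup (Equiv.Perm V) :=
    { carrier := {σ | ∀ a b, r a b ↔ r (σ a) (σ b)}
      mul_mem' := by
        intro σ τ hσ hτ a b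
        simp only [Equiv.Perm.coe_mul, Function.comp_apply]
        rw [hτ a b, hσ (τ a) (τ b)]
      one_mem' := by intro a b; simp
      inv_mem' := by
        intro σ hσ a b
        have := hσ (σ⁻¹ a) (σ⁻¹ b)
        simp at this
        exact this.symm }
  have hauto : ∀ (h : H) (a b : V), r a b ↔ r ((h : Equiv.Perm V) a) ((h : Equiv.Perm V) b) :=
    fun h => h.2
  let π : H → V := fun h => (h : Equiv.Perm V) v₀
  have hπmul : ∀ g h : H, π (g * h) = (g : Equiv.Perm V) (π h) := fun g h => rfl
  have hπone : π 1 = v₀ := rfl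
  let K : Finset H := univ.filter (fun h => π h = v₀)
  have hK1 : (1 : H) ∈ K := by simp [K, hπone]
  have hKpos : 0 < #K := card_pos.2 ⟨1, hK1⟩
  -- every fibre of `π` has the size of the stabiliser
  have hfib : ∀ W : Finset V, #(univ.filter (fun h : H => π h ∈ W)) = #W * #K := by
    intro W
    have hfw := card_eq_sum_card_fiberwise (f := π) (s := univ.filter (fun h : H => π h ∈ W))
      (t := W) (fun h hh => (mem_filter.1 hh).2)
    rw [hfw, ← smul_eq_mul, ← sum_const]
    refine sum_congr rfl (fun w hw => ?_)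
    obtain ⟨σ, hσ, hσw⟩ := htrans v₀ w
    let g : H := ⟨σ, hσ⟩
    have hg : π g = w := hσw
    have : (univ.filter (fun h : H => π h ∈ W)).filter (fun h => π h = w) =
        K.image (fun k => g * k) := by
      ext h
      simp only [mem_filter, mem_univ, true_and, mem_image, K]
      constructor
      · rintro ⟨-, hh⟩
        refine ⟨g⁻¹ * h, ?_, by simp⟩
        rw [hπmul, hh, ← hg]
        change ((g⁻¹ : H) : Equiv.Perm V) ((g : Equiv.Perm V) v₀) = v₀
        simp
      · rintro ⟨k, hk, rfl⟩
        rw [hπmul, hk]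
        exact ⟨by rw [show (g : Equiv.Perm V) v₀ = w from hg]; exact hw, hg⟩
    rw [this, card_image_of_injective _ (mul_right_injective g)]
  -- the two neighbourhoods as finsets
  let N1 : Finset V := univ.filter (fun u => r v₀ u)
  let N2 : Finset V := univ.filter (fun w => w ≠ v₀ ∧ ¬ r v₀ w ∧ ∃ u, r v₀ u ∧ r u w)
  have hv₀N1 : v₀ ∉ N1 := by simp [N1, hirr]
  let A : Finset H := univ.filter (fun h => π h ∈ insert v₀ N1)
  let S : Finset H := univ.filter (fun h => π h ∈ N1)
  let B : Finset H := insert 1 S
  let C : Finset H := univ.filter (fun h => π h ∈ insert v₀ (N1 ∪ N2))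
  have h1S : (1 : H) ∉ S := by simp [S, hπone, hv₀N1]
  have hAcard : #A = (#N1 + 1) * #K := by
    rw [hfib, card_insert_of_notMem hv₀N1]
  have hBcard : #B = #N1 * #K + 1 := by
    rw [card_insert_of_notMem h1S, hfib]
  have hCcard : #C ≤ (#N1 + #N2 + 1) * #K := by
    rw [hfib]
    refine Nat.mul_le_mul_right _ ?_
    exact (card_insert_le _ _).trans (Nat.succ_le_succ (card_union_le _ _))
  -- unique representation of `1`
  have hx : ∀ y : H, (y ∈ A ∧ y⁻¹ ∈ B) ↔ y = 1 := by
    intro y
    constructor
    · rintro ⟨hyA, hyB⟩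
      simp only [B, mem_insert, S, mem_filter, mem_univ, true_and, N1] at hyB
      rcases hyB with hy1 | hyS
      · simpa using hy1
      · exfalso
        simp only [A, mem_filter, mem_univ, true_and, mem_insert, N1] at hyA
        have h2 : r ((y : Equiv.Perm V) v₀) ((y : Equiv.Perm V) (π y⁻¹)) := (hauto y _ _).1 hyS
        have h3 : (y : Equiv.Perm V) (π y⁻¹) = v₀ := by
          change (y : Equiv.Perm V) (((y⁻¹ : H) : Equiv.Perm V) v₀) = v₀
          simp
        rw [h3] at h2
        rcases hyA with hy | hy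
        · rw [show (y : Equiv.Perm V) v₀ = v₀ from hy] at h2
          exact hirr _ h2
        · exact hasym _ _ hy h2
    · rintro rfl
      exact ⟨by simp [A, hπone], by simp [B]⟩
  -- the product set stays inside the ball of radius two
  have hAB : A * B ⊆ C := by
    intro z hz
    obtain ⟨a, ha, b, hb, rfl⟩ := mem_mul.1 hz
    simp only [A, mem_filter, mem_univ, true_and, mem_insert, N1] at ha
    simp only [B, mem_insert, S, mem_filter, mem_univ, true_and, N1] at hb
    simp only [C, mem_filter, mem_univ, true_and, mem_insert, mem_union, N1, N2]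
    rcases hb with rfl | hb
    · rw [mul_one]
      rcases ha with ha | ha
      · exact Or.inl ha
      · exact Or.inr (Or.inl ha)
    · have h2 : r ((a : Equiv.Perm V) v₀) (π (a * b)) := (hauto a _ _).1 hb
      rcases ha with ha | ha
      · rw [show (a : Equiv.Perm V) v₀ = v₀ from ha] at h2
        exact Or.inr (Or.inl h2)
      · by_cases hz0 : π (a * b) = v₀
        · exact Or.inl hz0
        · by_cases hz1 : r v₀ (π (a * b))
          · exact Or.inr (Or.inl hz1)
          · exact Or.inr (Or.inr ⟨hz0, hz1, _, ha, h2⟩)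
  have hkem := Vale.Agent.Lib.Kemperman.card_add_card_le A B 1 hx
  have hABcard : #(A * B) ≤ (#N1 + #N2 + 1) * #K := (card_le_card hAB).trans hCcard
  have hmain : #N1 * #K ≤ #N2 * #K := by
    rw [hAcard, hBcard] at hkem
    have e1 : (#N1 + 1) * #K = #N1 * #K + #K := by ring
    have e2 : (#N1 + #N2 + 1) * #K = #N1 * #K + #N2 * #K + #K := by ring
    rw [e1] at hkem
    rw [e2] at hABcard
    omega
  have hle : #N1 ≤ #N2 := Nat.le_of_mul_le_mul_right hmain hKpos
  have e1 : outNbr r v₀ = (N1 : Set V) := by
    ext u; simp [outNbr, N1]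
  have e2 : secondOutNbr r v₀ = (N2 : Set V) := by
    ext u; simp [secondOutNbr, N2]
  rw [e1, e2, Set.ncard_coe_finset, Set.ncard_coe_finset]
  exact hle

end Vale.Agent.Results.P038.VertexTransitive
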