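import Mathlib
import Vale.Agent.Results.P038.VertexTransitive

namespace Vale.Agent.Results.P038.Cayley

/-- First out-neighbourhood of `v` for the arc relation `r` (`r v u` means `v → u`). -/
def outNbr {V : Type*} (r : V → V → Prop) (v : V) : Set V :=
  {u | r v u}

/-- Second out-neighbourhood of `v`: vertices at directed distance exactly two from `v`. -/
def secondOutNbr {V : Type*} (r : V → V → Prop) (v : V) : Set V :=
  {w | w ≠ v ∧ ¬ r v w ∧ ∃ u, r v u ∧ r u w}

/-- The Cayley digraph of a group `G` with connection set `S`: arcs `x → x * s` for `s ∈ S`. -/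
def cayleyArc {G : Type*} [Group G] (S : Set G) (x y : G) : Prop :=
  x⁻¹ * y ∈ S

/-- Seymour's second neighbourhood conjecture for Cayley digraphs of finite groups: if `S`
contains no element together with its inverse (so the Cayley digraph is an oriented graph), then
every vertex `v` satisfies `|N₁⁺(v)| ≤ |N₂⁺(v)|`. -/
theorem result {G : Type*} [Group G] [Fintype G] (S : Set G) (hS : ∀ s ∈ S, s⁻¹ ∉ S) :
    ∀ v : G, (outNbr (cayleyArc S) v).ncard ≤ (secondOutNbr (cayleyArc S) v).ncard := by
  have h1 : (1 : G) ∉ S := fun h => hS 1 h (by simpa using h)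
  have key := Vale.Agent.Results.P038.VertexTransitive.result (cayleyArc S)
    (by intro v; simp [cayleyArc, h1])
    (by
      intro u v huv hvu
      have : (u⁻¹ * v)⁻¹ = v⁻¹ * u := by simp
      exact hS _ huv (by rw [this]; exact hvu))
    (by
      intro u v
      refine ⟨Equiv.mulLeft (v * u⁻¹), ?_, by simp⟩
      intro a b
      simp [cayleyArc, mul_assoc])
  exact key

end Vale.Agent.Results.P038.Cayley
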