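import Mathlib

namespace Vale.Agent.Results.P038.TriangleFree

/-- First out-neighbourhood of `v` for the arc relation `r` (`r v u` means `v → u`). -/
def outNbr {V : Type*} (r : V → V → Prop) (v : V) : Set V :=
  {u | r v u}

/-- Second out-neighbourhood of `v`: vertices at directed distance exactly two from `v`. -/
def secondOutNbr {V : Type*} (r : V → V → Prop) (v : V) : Set V :=
  {w | w ≠ v ∧ ¬ r v w ∧ ∃ u, r v u ∧ r u w}

/-- Seymour's second neighbourhood conjecture holds for every nonempty finite oriented graph
whose underlying undirected graph is triangle-free: any vertex of minimum outdegree works. -/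
theorem result {V : Type*} [Fintype V] [Nonempty V] (r : V → V → Prop)
    (_hirr : ∀ v, ¬ r v v) (hasym : ∀ u v, r u v → ¬ r v u)
    (htri : ∀ a b c, (r a b ∨ r b a) → (r b c ∨ r c b) → (r a c ∨ r c a) → False) :
    ∃ v, (outNbr r v).ncard ≤ (secondOutNbr r v).ncard := by
  classical
  obtain ⟨v, -, hv⟩ := Finset.exists_min_image (Finset.univ : Finset V)
    (fun v => (outNbr r v).ncard) Finset.univ_nonempty
  refine ⟨v, ?_⟩
  by_cases hne : (outNbr r v).Nonempty
  · obtain ⟨u, hu⟩ := hne
    have hvu : r v u := hu
    have hsub : outNbr r u ⊆ secondOutNbr r v := by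
      intro w hw
      have huw : r u w := hw
      refine ⟨?_, ?_, u, hvu, huw⟩
      · rintro rfl
        exact hasym _ _ hvu huw
      · intro hvw
        exact htri v u w (Or.inl hvu) (Or.inl huw) (Or.inl hvw)
    calc (outNbr r v).ncard ≤ (outNbr r u).ncard := hv u (Finset.mem_univ u)
      _ ≤ (secondOutNbr r v).ncard := Set.ncard_le_ncard hsub (Set.toFinite _)
  · rw [Set.not_nonempty_iff_eq_empty] at hne
    rw [hne]
    simp

end Vale.Agent.Results.P038.TriangleFree
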